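import Mathlib

/-! A homological linear isoperimetric inequality implies that geodesic triangles are thin. -/

namespace Vale.Agent.P186

open SimpleGraph

variable {V : Type} {Γ : SimpleGraph V}

/-- The sum of `ω` over the oriented edges of a walk. -/
def walkSum (ω : V → V → ℤ) : {u v : V} → Γ.Walk u v → ℤ
  | _, _, .nil => 0
  | u, _, .cons (v := w) _ p => ω u w + walkSum ω p

theorem walkSum_append (ω : V → V → ℤ) {u v w : V} (p : Γ.Walk u v) (q : Γ.Walk v w) :
    walkSum ω (p.append q) = walkSum ω p + walkSum ω q := by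
  induction p with
  | nil => simp [walkSum]
  | cons h p ih => simp [walkSum, ih, add_assoc]

/-- The discrete form `χ df`. -/
def form (χ f : V → ℤ) (a b : V) : ℤ := (χ a + χ b) * (f b - f a)

/-- One-Lipschitz functions on a graph. -/
def Lip (Γ : SimpleGraph V) (f : V → ℤ) : Prop := ∀ a b, Γ.Adj a b → |f a - f b| ≤ 1

/-- The isoperimetric hypothesis in dual form. -/
def Fill (Γ : SimpleGraph V) (C : ℕ) : Prop :=
  ∀ (u : V) (p : Γ.Walk u u) (χ f : V → ℤ), Lip Γ χ → Lip Γ f →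
    walkSum (form χ f) p ≤ C * p.length

theorem walkSum_const {χ f : V → ℤ} {k : ℤ} {u v : V} (p : Γ.Walk u v)
    (h : ∀ w ∈ p.support, χ w = k) : walkSum (form χ f) p = 2 * k * (f v - f u) := by
  induction p with
  | nil => simp [walkSum]
  | @cons a b c hab p ih =>
    rw [walkSum, ih fun w hw => h w (by simp [hw]), form, h a (by simp), h b (by simp)]
    ring

theorem walkSum_ge {χ f : V → ℤ} {k : ℤ} (hf : Lip Γ f) (h0 : ∀ w, 0 ≤ χ w) (hk : ∀ w, χ w ≤ k)
    {u v : V} (p : Γ.Walk u v) : -(2 * k * p.length) ≤ walkSum (form χ f) p := by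
  induction p with
  | nil => simp [walkSum]
  | @cons a b c hab p ih =>
    rw [walkSum, Walk.length_cons, form]
    have h1 := abs_le.mp (hf a b hab)
    have h2 := h0 a
    have h3 := h0 b
    have h4 := hk a
    have h5 := hk b
    push_cast
    nlinarith

theorem lip_dist (hc : Γ.Connected) (s : V) : Lip Γ fun w => (Γ.dist s w : ℤ) := by
  intro a b hab
  have h1 := hc.dist_triangle (u := s) (v := a) (w := b)
  have h2 := hc.dist_triangle (u := s) (v := b) (w := a)
  rw [dist_eq_one_iff_adj.mpr hab] at h1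
  rw [dist_eq_one_iff_adj.mpr hab.symm] at h2
  rw [abs_le]
  constructor <;> simp only <;> omega

theorem exists_bump (hc : Γ.Connected) (A : List V) (k : ℕ) :
    ∃ χ : V → ℤ, Lip Γ χ ∧ (∀ w, 0 ≤ χ w) ∧ (∀ w, χ w ≤ k) ∧ (∀ w ∈ A, χ w = k) ∧
      ∀ w, (∀ u ∈ A, k ≤ Γ.dist u w) → χ w = 0 := by
  classical
  let χ : V → ℕ := fun w => A.toFinset.sup fun u => k - Γ.dist u w
  have hk : ∀ w, χ w ≤ k := fun w => Finset.sup_le fun u _ => Nat.sub_le _ _
  have hl : ∀ a b, Γ.Adj a b → χ a ≤ χ b + 1 := by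
    intro a b hab
    refine Finset.sup_le fun u hu => ?_
    have h1 : k - Γ.dist u b ≤ χ b := Finset.le_sup (f := fun u => k - Γ.dist u b) hu
    have h2 := hc.dist_triangle (u := u) (v := a) (w := b)
    rw [dist_eq_one_iff_adj.mpr hab] at h2
    omega
  refine ⟨fun w => χ w, ?_, fun w => by positivity, fun w => Int.ofNat_le.mpr (hk w), ?_, ?_⟩
  · intro a b hab
    have h1 := hl a b hab
    have h2 := hl b a hab.symm
    rw [abs_le]
    constructor <;> simp only <;> omega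
  · intro w hw
    have h1 : k - Γ.dist w w ≤ χ w :=
      Finset.le_sup (f := fun u => k - Γ.dist u w) (List.mem_toFinset.mpr hw)
    have h2 := hk w
    rw [SimpleGraph.dist_self] at h1
    simp only
    omega
  · intro w hw
    have : χ w ≤ 0 := Finset.sup_le fun u hu => by
      have := hw u (List.mem_toFinset.mp hu)
      omega
    simp only
    omega

/-- Two walks are `k`-separated, unless one of them is trivial. -/
def Sep (k : ℕ) {a b c d : V} (p : Γ.Walk a b) (q : Γ.Walk c d) : Prop :=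
  p.length = 0 ∨ q.length = 0 ∨ ∀ u ∈ p.support, ∀ w ∈ q.support, k ≤ Γ.dist u w

theorem Sep.symm {k : ℕ} {a b c d : V} {p : Γ.Walk a b} {q : Γ.Walk c d} (h : Sep k p q) :
    Sep k q p := by
  rcases h with h | h | h
  · exact Or.inr (Or.inl h)
  · exact Or.inl h
  · exact Or.inr (Or.inr fun u hu w hw => by rw [dist_comm]; exact h w hw u hu)

theorem hex_one (hc : Γ.Connected) {C k : ℕ} (hF : Fill Γ C) {a b b' c c' a' : V}
    (α : Γ.Walk a b) (e1 : Γ.Walk b b') (β : Γ.Walk b' c) (e2 : Γ.Walk c c') (γ : Γ.Walk c' a')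
    (e3 : Γ.Walk a' a) (hα : α.length = Γ.dist a b) (h1 : e1.length ≤ k) (h2 : e2.length ≤ k)
    (h3 : e3.length ≤ k) (s1 : Sep k α β) (s2 : Sep k α γ) :
    2 * k * α.length ≤ C * (α.length + β.length + γ.length + 3 * k) + 6 * k * k := by
  by_cases h0 : α.length = 0
  · rw [h0]; omega
  obtain ⟨χ, l1, l2, l3, l4, l5⟩ := exists_bump hc α.support k
  have zero : ∀ {s t : V} (σ : Γ.Walk s t), Sep k α σ →
      walkSum (form χ fun w => (Γ.dist a w : ℤ)) σ = 0 := by
    intro s t σ hs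
    rcases hs with h | h | h
    · exact absurd h h0
    · cases σ with
      | nil => rfl
      | cons _ _ => simp at h
    · rw [walkSum_const (k := 0) σ fun w hw => l5 w fun u hu => h u hu w hw]
      ring
  have key := hF a (α.append (e1.append (β.append (e2.append (γ.append e3))))) χ
    (fun w => (Γ.dist a w : ℤ)) l1 (lip_dist hc a)
  simp only [walkSum_append, Walk.length_append] at key
  rw [walkSum_const α l4, zero β s1, zero γ s2, dist_self, ← hα] at key
  have g1 := walkSum_ge (lip_dist hc a) l2 l3 e1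
  have g2 := walkSum_ge (lip_dist hc a) l2 l3 e2
  have g3 := walkSum_ge (lip_dist hc a) l2 l3 e3
  have h1' : (e1.length : ℤ) ≤ k := by exact_mod_cast h1
  have h2' : (e2.length : ℤ) ≤ k := by exact_mod_cast h2
  have h3' : (e3.length : ℤ) ≤ k := by exact_mod_cast h3
  have hk : (0 : ℤ) ≤ k := by positivity
  have hC : (0 : ℤ) ≤ C := by positivity
  have : (2 * k * α.length : ℤ) ≤ C * (α.length + β.length + γ.length + 3 * k) + 6 * k * k := by
    push_cast at key
    nlinarith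
  exact_mod_cast this

theorem hex (hc : Γ.Connected) {C : ℕ} (hF : Fill Γ C) {a b b' c c' a' : V}
    (α : Γ.Walk a b) (e1 : Γ.Walk b b') (β : Γ.Walk b' c) (e2 : Γ.Walk c c') (γ : Γ.Walk c' a')
    (e3 : Γ.Walk a' a) (hα : α.length = Γ.dist a b) (hβ : β.length = Γ.dist b' c)
    (hγ : γ.length = Γ.dist c' a') (h1 : e1.length ≤ 2 * C + 1) (h2 : e2.length ≤ 2 * C + 1)
    (h3 : e3.length ≤ 2 * C + 1) (s1 : Sep (2 * C + 1) α β) (s2 : Sep (2 * C + 1) α γ)
    (s3 : Sep (2 * C + 1) β γ) : α.length ≤ 30 * (2 * C + 1) * (2 * C + 1) := by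
  have i1 := hex_one hc hF α e1 β e2 γ e3 hα h1 h2 h3 s1 s2
  have i2 := hex_one hc hF β e2 γ e3 α e1 hβ h2 h3 h1 s3 s1.symm
  have i3 := hex_one hc hF γ e3 α e1 β e2 hγ h3 h1 h2 s2.symm s3.symm
  nlinarith [Nat.zero_le (C * α.length), Nat.zero_le (C * β.length), Nat.zero_le (C * γ.length),
    Nat.zero_le (C * C), Nat.zero_le β.length, Nat.zero_le γ.length]

theorem exists_sub {x y : V} (p : Γ.Walk x y) (i n : ℕ) (h : i + n ≤ p.length) :
    ∃ w : Γ.Walk (p.getVert i) (p.getVert (i + n)), w.length = n ∧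
      ∀ u ∈ w.support, ∃ t, i ≤ t ∧ t ≤ i + n ∧ u = p.getVert t := by
  induction n with
  | zero => exact ⟨.nil, rfl, fun u hu => ⟨i, le_rfl, le_rfl, by simpa using hu⟩⟩
  | succ n ih =>
    obtain ⟨w, h1, h2⟩ := ih (by omega)
    refine ⟨w.concat (p.adj_getVert_succ (by omega)), by simp [h1], fun u hu => ?_⟩
    simp only [Walk.support_concat, List.mem_append, List.mem_singleton] at hu
    rcases hu with hu | hu
    · obtain ⟨t, t1, t2, t3⟩ := h2 u hu
      exact ⟨t, t1, by omega, t3⟩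
    · exact ⟨i + n + 1, by omega, by omega, hu⟩

theorem dist_getVert_le {x y : V} (p : Γ.Walk x y) {i j : ℕ} (hij : i ≤ j) (hj : j ≤ p.length) :
    Γ.dist (p.getVert i) (p.getVert j) ≤ j - i := by
  obtain ⟨n, rfl⟩ := Nat.exists_eq_add_of_le hij
  obtain ⟨w, h1, -⟩ := exists_sub p i n hj
  have := dist_le w
  omega

theorem exists_geo_sub (hc : Γ.Connected) {x y : V} (p : Γ.Walk x y)
    (hp : p.length = Γ.dist x y) {i j : ℕ} (hij : i ≤ j) (hj : j ≤ p.length) :
    ∃ w : Γ.Walk (p.getVert i) (p.getVert j), w.length = j - i ∧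
      w.length = Γ.dist (p.getVert i) (p.getVert j) ∧
      ∀ u ∈ w.support, ∃ t, i ≤ t ∧ t ≤ j ∧ u = p.getVert t := by
  have d1 := dist_getVert_le p (Nat.zero_le i) (hij.trans hj)
  have d2 := dist_getVert_le p hj le_rfl
  have d3 := dist_getVert_le p hij hj
  rw [Walk.getVert_zero] at d1
  rw [Walk.getVert_length] at d2
  have t1 := hc.dist_triangle (u := x) (v := p.getVert i) (w := y)
  have t2 := hc.dist_triangle (u := p.getVert i) (v := p.getVert j) (w := y)
  obtain ⟨n, rfl⟩ := Nat.exists_eq_add_of_le hij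
  obtain ⟨w, h1, h2⟩ := exists_sub p i n hj
  exact ⟨w, by omega, by omega, h2⟩

theorem exists_geo_between (hc : Γ.Connected) {x y : V} (p : Γ.Walk x y)
    (hp : p.length = Γ.dist x y) {u v : V} (hu : u ∈ p.support) (hv : v ∈ p.support) :
    ∃ w : Γ.Walk u v, w.length = Γ.dist u v ∧ ∀ t ∈ w.support, t ∈ p.support := by
  obtain ⟨i, rfl, hi⟩ := Walk.mem_support_iff_exists_getVert.mp hu
  obtain ⟨j, rfl, hj⟩ := Walk.mem_support_iff_exists_getVert.mp hv
  rcases le_total i j with h | h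
  · obtain ⟨w, -, h2, h3⟩ := exists_geo_sub hc p hp h hj
    refine ⟨w, h2, fun t ht => ?_⟩
    obtain ⟨s, -, -, rfl⟩ := h3 t ht
    exact p.getVert_mem_support s
  · obtain ⟨w, -, h2, h3⟩ := exists_geo_sub hc p hp h hi
    refine ⟨w.reverse, by rw [Walk.length_reverse, h2, dist_comm], fun t ht => ?_⟩
    obtain ⟨s, -, -, rfl⟩ := h3 t (by simpa using ht)
    exact p.getVert_mem_support s

theorem dist_ge_of_adj (hc : Γ.Connected) {a b w : V} {k : ℕ} (hab : Γ.Adj a b)
    (h : k < Γ.dist a w) : k ≤ Γ.dist b w := by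
  have h2 := hc.dist_triangle (u := a) (v := b) (w := w)
  rw [dist_eq_one_iff_adj.mpr hab] at h2
  omega

theorem pentagon (hc : Γ.Connected) {C : ℕ} (hF : Fill Γ C) {a b b' z a' : V}
    (α : Γ.Walk a b) (q : Γ.Walk b' z) (r : Γ.Walk z a')
    (hα : α.length = Γ.dist a b) (hq : q.length = Γ.dist b' z) (hr : r.length = Γ.dist z a')
    (h1 : Γ.dist b b' ≤ 2 * C + 1) (h3 : Γ.dist a' a ≤ 2 * C + 1)
    (s1 : ∀ u ∈ α.support, ∀ w ∈ q.support, 2 * C + 1 ≤ Γ.dist u w)
    (s2 : ∀ u ∈ α.support, ∀ w ∈ r.support, 2 * C + 1 ≤ Γ.dist u w) :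
    α.length ≤ 30 * (2 * C + 1) * (2 * C + 1) := by
  classical
  have hex0 : ∃ i, ∃ w ∈ r.support, Γ.dist (q.getVert i) w ≤ 2 * C + 1 :=
    ⟨q.length, z, r.start_mem_support, by simp⟩
  set i := Nat.find hex0 with hi
  obtain ⟨c', hc', hd⟩ := Nat.find_spec hex0
  rw [← hi] at hd
  have hi1 : i ≤ q.length := Nat.find_min' hex0 ⟨z, r.start_mem_support, by simp⟩
  have hi2 : ∀ t < i, ∀ w ∈ r.support, 2 * C + 1 < Γ.dist (q.getVert t) w := by
    intro t ht w hw
    have := Nat.find_min hex0 ht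
    push Not at this
    exact this w hw
  obtain ⟨β, hβ0, hβ1, hβ2⟩ := exists_geo_sub hc q hq (Nat.zero_le i) hi1
  obtain ⟨γ, hγ1, hγ2⟩ := exists_geo_between hc r hr hc' r.end_mem_support
  obtain ⟨e1, he1⟩ := hc.exists_walk_length_eq_dist b (q.getVert 0)
  obtain ⟨e2, he2⟩ := hc.exists_walk_length_eq_dist (q.getVert i) c'
  obtain ⟨e3, he3⟩ := hc.exists_walk_length_eq_dist a' a
  refine hex hc hF α e1 β e2 γ e3 hα hβ1 hγ1 (by rw [he1, Walk.getVert_zero]; exact h1)
    (by omega) (by omega) (Or.inr (Or.inr fun u hu w hw => ?_))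
    (Or.inr (Or.inr fun u hu w hw => s2 u hu w (hγ2 w hw))) ?_
  · obtain ⟨t, -, -, rfl⟩ := hβ2 w hw
    exact s1 u hu _ (q.getVert_mem_support t)
  · by_cases h0 : i = 0
    · exact Or.inl (by omega)
    refine Or.inr (Or.inr fun u hu w hw => ?_)
    obtain ⟨t, -, t2, rfl⟩ := hβ2 u hu
    by_cases hti : t < i
    · exact (hi2 t hti w (hγ2 w hw)).le
    · have := dist_ge_of_adj hc (q.adj_getVert_succ (i := i - 1) (by omega))
        (hi2 (i - 1) (by omega) w (hγ2 w hw))
      rwa [show i - 1 + 1 = t by omega] at this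

theorem thin (hc : Γ.Connected) {C : ℕ} (hF : Fill Γ C) : ∃ δ : ℕ, ∀ (x y z : V)
    (p : Γ.Walk x y) (q : Γ.Walk y z) (r : Γ.Walk z x), p.length = Γ.dist x y →
    q.length = Γ.dist y z → r.length = Γ.dist z x →
    ∀ u ∈ p.support, ∃ v, (v ∈ q.support ∨ v ∈ r.support) ∧ Γ.dist u v ≤ δ := by
  classical
  set k := 2 * C + 1 with hk
  refine ⟨30 * k * k + k, fun x y z p q r hp hq hr u hu => ?_⟩
  obtain ⟨m, rfl, hm⟩ := Walk.mem_support_iff_exists_getVert.mp hu
  let near : ℕ → Prop := fun i => ∃ v, (v ∈ q.support ∨ v ∈ r.support) ∧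
    Γ.dist (p.getVert i) v ≤ k
  by_cases hnm : near m
  · obtain ⟨v, h1, h2⟩ := hnm
    exact ⟨v, h1, by omega⟩
  have n0 : near 0 := ⟨x, Or.inr r.end_mem_support, by simp⟩
  have n1 : near p.length := ⟨y, Or.inl q.start_mem_support, by simp⟩
  set i := Nat.findGreatest near m with hi
  have hi1 : i ≤ m := Nat.findGreatest_le m
  have hi2 : near i := Nat.findGreatest_spec (Nat.zero_le m) n0
  have hi3 : ∀ t, i < t → t ≤ m → ¬ near t := fun t h1 h2 => Nat.findGreatest_is_greatest h1 h2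
  have hex0 : ∃ j, m ≤ j ∧ near j := ⟨p.length, hm, n1⟩
  set j := Nat.find hex0 with hj
  obtain ⟨hj1, hj2⟩ := Nat.find_spec hex0
  rw [← hj] at hj1 hj2
  have hj3 : j ≤ p.length := Nat.find_min' hex0 ⟨hm, n1⟩
  have hj4 : ∀ t, m ≤ t → t < j → ¬ near t := fun t h1 h2 h3 => Nat.find_min hex0 h2 ⟨h1, h3⟩
  have him : i ≠ m := fun e => hnm (e ▸ hi2)
  have hjm : j ≠ m := fun e => hnm (e ▸ hj2)
  have far : ∀ t, i < t → t < j → ∀ v, (v ∈ q.support ∨ v ∈ r.support) →
      k < Γ.dist (p.getVert t) v := by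
    intro t h1 h2 v hv
    have : ¬ near t := by
      rcases le_total t m with h | h
      · exact hi3 t h1 h
      · exact hj4 t h h2
    by_contra hcon
    exact this ⟨v, hv, by omega⟩
  have far' : ∀ t, i ≤ t → t ≤ j → ∀ v, (v ∈ q.support ∨ v ∈ r.support) →
      k ≤ Γ.dist (p.getVert t) v := by
    intro t h1 h2 v hv
    by_cases h3 : t = i
    · rw [h3]
      exact dist_ge_of_adj hc (p.adj_getVert_succ (i := i) (by omega)).symm
        (far (i + 1) (by omega) (by omega) v hv)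
    by_cases h4 : t = j
    · have := dist_ge_of_adj hc (p.adj_getVert_succ (i := j - 1) (by omega))
        (far (j - 1) (by omega) (by omega) v hv)
      rwa [show j - 1 + 1 = t by omega] at this
    · exact (far t (by omega) (by omega) v hv).le
  obtain ⟨α, hα0, hα1, hα2⟩ := exists_geo_sub hc p hp (hi1.trans hj1) hj3
  obtain ⟨a', ha1, ha2⟩ := hi2
  obtain ⟨b', hb1, hb2⟩ := hj2
  have bent : ∃ (z' : V) (q1 : Γ.Walk b' z') (r1 : Γ.Walk z' a'), q1.length = Γ.dist b' z' ∧
      r1.length = Γ.dist z' a' ∧ (∀ v ∈ q1.support, v ∈ q.support ∨ v ∈ r.support) ∧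
      ∀ v ∈ r1.support, v ∈ q.support ∨ v ∈ r.support := by
    have toz : ∀ v, (v ∈ q.support ∨ v ∈ r.support) → ∃ w : Γ.Walk v z,
        w.length = Γ.dist v z ∧ ∀ t ∈ w.support, t ∈ q.support ∨ t ∈ r.support := by
      rintro v (hv | hv)
      · obtain ⟨w, h1, h2⟩ := exists_geo_between hc q hq hv q.end_mem_support
        exact ⟨w, h1, fun t ht => Or.inl (h2 t ht)⟩
      · obtain ⟨w, h1, h2⟩ := exists_geo_between hc r hr hv r.start_mem_support
        exact ⟨w, h1, fun t ht => Or.inr (h2 t ht)⟩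
    obtain ⟨w1, h1, h2⟩ := toz b' hb1
    obtain ⟨w2, h3, h4⟩ := toz a' ha1
    exact ⟨z, w1, w2.reverse, h1, by rw [Walk.length_reverse, h3, dist_comm], h2,
      fun v hv => h4 v (by simpa using hv)⟩
  obtain ⟨z', q1, r1, e1, e2, e3, e4⟩ := bent
  have hlen := pentagon hc hF α q1 r1 hα1 e1 e2 hb2 (by rw [dist_comm]; exact ha2)
    (fun u hu w hw => by
      obtain ⟨t, t1, t2, rfl⟩ := hα2 u hu
      exact far' t t1 t2 w (e3 w hw))
    (fun u hu w hw => by
      obtain ⟨t, t1, t2, rfl⟩ := hα2 u hu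
      exact far' t t1 t2 w (e4 w hw))
  refine ⟨a', ha1, ?_⟩
  have t1 := hc.dist_triangle (u := p.getVert m) (v := p.getVert i) (w := a')
  have t2 := dist_getVert_le p hi1 hm
  rw [dist_comm] at t2
  rw [← hk] at hlen
  omega

end Vale.Agent.P186
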